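import Vale.Agent.P062.Cert.Table

namespace Vale.Agent.P062

theorem c5 : chkRange tbl 250 1250 = true := by decide +kernel

end Vale.Agent.P062
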