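import Vale.Agent.P062.Cert.C0
import Vale.Agent.P062.Cert.C1
import Vale.Agent.P062.Cert.C2
import Vale.Agent.P062.Cert.C3
import Vale.Agent.P062.Cert.C4
import Vale.Agent.P062.Cert.C5
import Vale.Agent.P062.Cert.C6
import Vale.Agent.P062.Cert.C7
import Vale.Agent.P062.Cert.C8
import Vale.Agent.P062.Cert.C9
import Vale.Agent.P062.Cert.C10
import Vale.Agent.P062.Cert.C11
import Vale.Agent.P062.Cert.C12
import Vale.Agent.P062.Cert.C13
import Vale.Agent.P062.Cert.C14
import Vale.Agent.P062.Cert.C15
import Vale.Agent.P062.Cert.C16
import Vale.Agent.P062.Cert.C17
import Vale.Agent.P062.Cert.C18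
import Vale.Agent.P062.Cert.C19
import Vale.Agent.P062.Cert.C20
import Vale.Agent.P062.Cert.C21
import Vale.Agent.P062.Cert.C22
import Vale.Agent.P062.Cert.C23
import Vale.Agent.P062.Cert.C24
import Vale.Agent.P062.Cert.C25
import Vale.Agent.P062.Cert.C26

namespace Vale.Agent.P062

theorem all_ok : ∀ k < 6701, chkOne tbl k = true := by
  intro k hk
  rcases Nat.lt_or_ge k 3250 with h | h
  · rcases Nat.lt_or_ge k 1500 with h | h
    · rcases Nat.lt_or_ge k 750 with h | h
      · rcases Nat.lt_or_ge k 250 with h | h
        · exact chkRange_sound 250 0 c0 k (by omega) (by omega)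
        · rcases Nat.lt_or_ge k 500 with h | h
          · exact chkRange_sound 250 250 c1 k (by omega) (by omega)
          · exact chkRange_sound 250 500 c2 k (by omega) (by omega)
      · rcases Nat.lt_or_ge k 1000 with h | h
        · exact chkRange_sound 250 750 c3 k (by omega) (by omega)
        · rcases Nat.lt_or_ge k 1250 with h | h
          · exact chkRange_sound 250 1000 c4 k (by omega) (by omega)
          · exact chkRange_sound 250 1250 c5 k (by omega) (by omega)
    · rcases Nat.lt_or_ge k 2250 with h | h
      · rcases Nat.lt_or_ge k 1750 with h | h
        · exact chkRange_sound 250 1500 c6 k (by omega) (by omega)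
        · rcases Nat.lt_or_ge k 2000 with h | h
          · exact chkRange_sound 250 1750 c7 k (by omega) (by omega)
          · exact chkRange_sound 250 2000 c8 k (by omega) (by omega)
      · rcases Nat.lt_or_ge k 2750 with h | h
        · rcases Nat.lt_or_ge k 2500 with h | h
          · exact chkRange_sound 250 2250 c9 k (by omega) (by omega)
          · exact chkRange_sound 250 2500 c10 k (by omega) (by omega)
        · rcases Nat.lt_or_ge k 3000 with h | h
          · exact chkRange_sound 250 2750 c11 k (by omega) (by omega)
          · exact chkRange_sound 250 3000 c12 k (by omega) (by omega)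
  · rcases Nat.lt_or_ge k 5000 with h | h
    · rcases Nat.lt_or_ge k 4000 with h | h
      · rcases Nat.lt_or_ge k 3500 with h | h
        · exact chkRange_sound 250 3250 c13 k (by omega) (by omega)
        · rcases Nat.lt_or_ge k 3750 with h | h
          · exact chkRange_sound 250 3500 c14 k (by omega) (by omega)
          · exact chkRange_sound 250 3750 c15 k (by omega) (by omega)
      · rcases Nat.lt_or_ge k 4500 with h | h
        · rcases Nat.lt_or_ge k 4250 with h | h
          · exact chkRange_sound 250 4000 c16 k (by omega) (by omega)
          · exact chkRange_sound 250 4250 c17 k (by omega) (by omega)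
        · rcases Nat.lt_or_ge k 4750 with h | h
          · exact chkRange_sound 250 4500 c18 k (by omega) (by omega)
          · exact chkRange_sound 250 4750 c19 k (by omega) (by omega)
    · rcases Nat.lt_or_ge k 5750 with h | h
      · rcases Nat.lt_or_ge k 5250 with h | h
        · exact chkRange_sound 250 5000 c20 k (by omega) (by omega)
        · rcases Nat.lt_or_ge k 5500 with h | h
          · exact chkRange_sound 250 5250 c21 k (by omega) (by omega)
          · exact chkRange_sound 250 5500 c22 k (by omega) (by omega)
      · rcases Nat.lt_or_ge k 6250 with h | h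
        · rcases Nat.lt_or_ge k 6000 with h | h
          · exact chkRange_sound 250 5750 c23 k (by omega) (by omega)
          · exact chkRange_sound 250 6000 c24 k (by omega) (by omega)
        · rcases Nat.lt_or_ge k 6500 with h | h
          · exact chkRange_sound 250 6250 c25 k (by omega) (by omega)
          · exact chkRange_sound 201 6500 c26 k (by omega) (by omega)

end Vale.Agent.P062
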